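import Mathlib
import Vale.Agent.P333.Model
import Vale.Agent.P333.NPDefs
import Vale.Agent.P333.R2.H141.Result108
import Vale.Agent.P333.R2.H99.Amp3
import Vale.Agent.P333.R2.H417.Bulk

/-!
P333: NP-hardness of the approximation of the shortest common superstring with every ratio below
`108/107`, beside the polynomial time approximation algorithm of ratio `2`. The PCP theorem,
parallel repetition, Hastad's theorem and the Cook-Levin theorem are proved in the imported files.
-/

namespace Vale.Agent.Results.P333.Approx2NP108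

open Vale.Agent.P333

theorem result :
    HasApprox 2 ∧
    (∀ ρ : ℝ, 2 ≤ ρ → HasApprox ρ) ∧
    (∀ ρ : ℝ, ρ < 108 / 107 → HasApprox ρ → classNP = classP) ∧
    bestRatio ≤ 2 ∧
    (classNP ≠ classP → 108 / 107 ≤ bestRatio) ∧
    (∀ ρ : ℝ, ρ < 108 / 107 → ∀ L ∈ classNP,
      ∃ (f : List Bool → List (List ℕ)) (k : List Bool → ℕ),
        PolyTime (fun w : List Bool => w) familyW f ∧
        PolyTime (fun w : List Bool => w) Nat.bits k ∧
        ∀ x, (x ∈ L → opt (f x) ≤ k x) ∧ (x ∉ L → ρ * k x < opt (f x))) :=
  R2.H141.result108 (R2.H99.ampsExistK_of (by norm_num) (by norm_num)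
    (by norm_num : (1 / 512 : ℝ) ≤ 1 / 500) R2.H417.bulkBound)

end Vale.Agent.Results.P333.Approx2NP108
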