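import Vale.Agent.P333.Model
import Vale.Agent.P333.H705.GrDefs
import Vale.Agent.P333.R3.H641.Bin8

/-!
P333: the greedy algorithm over the alphabet {0, 1}. The greedy conjecture of Tarhio and Ukkonen is
false for binary strings, for every tie-breaking rule, and an approximation ratio of the greedy
algorithm on binary strings is one for all strings.
-/

namespace Vale.Agent.Results.P333.BinaryGreedy

open Vale.Agent.P333

/-- all letters are 0 or 1 -/
def Binary (S : List (List ℕ)) : Prop := ∀ s ∈ S, ∀ a ∈ s, a < 2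

theorem result :
    (∀ n : ℕ, ∃ S : List (List ℕ), Binary S ∧ n ≤ opt S ∧ Greedy.Reduced S S ∧
      (∃ t, Greedy.Output S t) ∧
      ∀ t, Greedy.Output S t → 2 * opt S + n < t.length ∧ 2123 * opt S < 1000 * t.length) ∧
    (∀ (S : List (List ℕ)) (n : ℕ), ∃ (m : ℕ) (f : List ℕ → List ℕ), n ≤ m ∧ 1 ≤ m ∧
      Binary (S.map f) ∧ (∀ s, (f s).length = m * s.length) ∧
      (∀ s t, f (s ++ t) = f s ++ f t) ∧ opt (S.map f) ≤ m * opt S ∧
      ∀ t', Greedy.Output (S.map f) t' ↔ ∃ t, Greedy.Output S t ∧ t' = f t) ∧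
    (∀ c : ℝ, (∀ (S : List (List ℕ)) (t : List ℕ), Binary S → Greedy.Output S t →
        (t.length : ℝ) ≤ c * opt S) →
      ∀ (S : List (List ℕ)) (t : List ℕ), Greedy.Output S t → (t.length : ℝ) ≤ c * opt S) ∧
    (∀ S : List (List ℕ), Binary S → ∃ T, IsSuperstring S T ∧ Binary [T] ∧ T.length = opt S) := by
  have key : ∀ (S : List (List ℕ)) (n : ℕ), ∃ (m : ℕ) (f : List ℕ → List ℕ), n ≤ m ∧ 1 ≤ m ∧
      Binary (S.map f) ∧ (∀ s, (f s).length = m * s.length) ∧
      (∀ s t, f (s ++ t) = f s ++ f t) ∧ opt (S.map f) ≤ m * opt S ∧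
      ∀ t', Greedy.Output (S.map f) t' ↔ ∃ t, Greedy.Output S t ∧ t' = f t := by
    intro S n
    obtain ⟨m, f, h0, h1, h2, h3, h4, -, h6, -, h8⟩ := R3.H641.transfer S n
    refine ⟨m, f, h0, h1, ?_, h3, h4, h6, h8⟩
    intro s hs
    obtain ⟨s', hs', rfl⟩ := List.mem_map.1 hs
    exact h2 s' hs'
  refine ⟨R3.H641.binary_output8, key, ?_, fun S hS => ?_⟩
  swap
  · obtain ⟨T, h1, h2, h3⟩ := R3.H641.binary_opt S hS
    exact ⟨T, h1, fun s hs => by rw [List.mem_singleton.1 hs]; exact h2, h3⟩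
  intro c h S t ht
  obtain ⟨m, f, -, h1, h2, h3, -, h4, h5⟩ := key S 0
  have hm : (0 : ℝ) < m := by exact_mod_cast h1
  have h6 := h (S.map f) (f t) h2 ((h5 _).2 ⟨t, ht, rfl⟩)
  rw [h3] at h6
  push_cast at h6
  have hc : 0 ≤ c := by
    have h7 := h [[0]] [0] (by
      intro s hs a ha
      simp only [List.mem_singleton] at hs
      subst hs
      simp only [List.mem_singleton] at ha
      omega) ⟨[[0]], ⟨by simp, fun s => by simp only [List.mem_singleton, forall_eq]; exact ⟨fun h => ⟨h, fun _ => h⟩, fun h => h.1⟩⟩, Relation.ReflTransGen.refl⟩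
    have h8 : (0 : ℝ) ≤ (opt [[0]] : ℝ) := Nat.cast_nonneg _
    simp only [List.length_singleton, Nat.cast_one] at h7
    by_contra hneg
    push Not at hneg
    nlinarith
  have h9 : (opt (S.map f) : ℝ) ≤ m * opt S := by exact_mod_cast h4
  have h10 : (m : ℝ) * t.length ≤ m * (c * opt S) := by
    calc (m : ℝ) * t.length ≤ c * opt (S.map f) := h6
      _ ≤ c * (m * opt S) := mul_le_mul_of_nonneg_left h9 hc
      _ = m * (c * opt S) := by ring
  exact le_of_mul_le_mul_left h10 hm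

end Vale.Agent.Results.P333.BinaryGreedy
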