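import Mathlib
import Vale.Agent.P333.Model
import Vale.Agent.P333.NPDefs
import Vale.Agent.P333.R3.H619.Defs
import Vale.Agent.P333.R3.H619.DefsMix
import Vale.Agent.P333.R3.H619.Main
import Vale.Agent.P333.R3.H619.Mix

/-!
P333: a polynomial time algorithm with the guarantee `opt S + cyc S`, where `cyc S` is the least
total length of a cyclic cover; the ratios on the families with `cyc S ≤ κ * opt S`: the slope
`(ratioOn κ - 1) / κ` is nonincreasing in `κ`, its limit at `0` is the least `c` such that length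
`(1 + ε) * opt S + (c + ε) * cyc S` is achieved for every `ε > 0`, and for `κ` in `(0, 1]` the ratio is at most `1 + κ`,
at least `1 + κ * (bestRatio - 1)`, and every ratio below `1 + κ / 107` is NP-hard.
-/

namespace Vale.Agent.Results.P333.CyclicCoverScale

open Vale.Agent.P333 Vale.Agent.P333.R3.H619

theorem result :
    ((∀ S, cyc S ≤ opt S) ∧ PolyTime familyW Nat.bits cyc ∧
      ∃ alg : List (List ℕ) → List ℕ, PolyTime familyW stringW alg ∧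
        ∀ S, IsSuperstring S (alg S) ∧ (alg S).length ≤ opt S + cyc S) ∧
    ((∀ ρ : ℝ, HasApproxOn 1 ρ ↔ HasApprox ρ) ∧ ratioOn 1 = bestRatio ∧
      (bestRatio < 2 ↔ ∃ κ : ℝ, 0 < κ ∧ κ ≤ 1 ∧ ratioOn κ < 1 + κ)) ∧
    ((∀ κ κ' ρ ρ' : ℝ, 0 < κ → κ ≤ κ' → HasApproxOn κ ρ → 1 + (ρ - 1) * κ' / κ < ρ' →
        HasApproxOn κ' ρ') ∧
      (∀ κ κ' : ℝ, 0 < κ → κ ≤ κ' → (ratioOn κ' - 1) / κ' ≤ (ratioOn κ - 1) / κ) ∧
      ∃ γ : ℝ, Filter.Tendsto (fun κ : ℝ => (ratioOn κ - 1) / κ)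
          (nhdsWithin 0 (Set.Ioi 0)) (nhds γ) ∧
        0 ≤ γ ∧ bestRatio - 1 ≤ γ ∧ γ ≤ 1 ∧ (classNP ≠ classP → 1 / 107 ≤ γ) ∧
        (∀ κ : ℝ, 0 < κ → (ratioOn κ - 1) / κ ≤ γ) ∧
        (∀ κ c : ℝ, 0 < κ → 0 ≤ c → HasPlusOn κ c → γ ≤ c) ∧
        (∀ c : ℝ, 0 ≤ c → (γ ≤ c ↔ ∀ ε : ℝ, 0 < ε → HasMix (1 + ε) (c + ε)))) ∧
    (∀ κ : ℝ, 0 < κ → κ ≤ 1 →
      HasApproxOn κ (1 + κ) ∧ 1 + κ * (bestRatio - 1) ≤ ratioOn κ ∧ ratioOn κ ≤ 1 + κ ∧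
      (classNP ≠ classP → 1 + κ / 107 ≤ ratioOn κ) ∧
      (∀ ρ : ℝ, ρ < 1 + κ / 107 → HasApproxOn κ ρ → classNP = classP) ∧
      (∀ c : ℝ, c < 1 / 107 → HasPlusOn κ c → classNP = classP) ∧
      (∀ ρ : ℝ, ρ < 1 + κ / 107 → ∀ L ∈ classNP,
        ∃ (f : List Bool → List (List ℕ)) (k : List Bool → ℕ),
          PolyTime (fun w : List Bool => w) familyW f ∧
          PolyTime (fun w : List Bool => w) Nat.bits k ∧
          ∀ x, (cyc (f x) : ℝ) ≤ κ * opt (f x) ∧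
            (x ∈ L → opt (f x) ≤ k x) ∧ (x ∉ L → ρ * k x < opt (f x)))) :=
  ⟨⟨cyc_le_opt, polyTime_cyc, plusCyclic⟩, ⟨approxOn_one, ratioOn_one, beat_iff⟩,
    ⟨fun _ _ _ _ h0 h1 h hρ => approxOn_mono h0 h1 h hρ, fun _ _ h0 h1 => slope_anti h0 h1,
      slope_mix⟩,
    fun κ h0 h1 => ⟨approxOn κ, ratio_rel h0 h1, ratioOn_le h0, le_ratioOn h0 h1,
      fun _ hρ h => np_eq_p_on h0 h1 hρ h, fun _ hc h => np_eq_p_plus h0 h1 hc h,
      fun ρ hρ L hL => hard_class108 κ h0 h1 ρ hρ L hL⟩⟩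

end Vale.Agent.Results.P333.CyclicCoverScale
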